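import Vale.Agent.P062.Defs
import Vale.Agent.P062.MainB

namespace Vale.Agent.Results.P062.Board17Moves21

open Vale.Agent.P062

/-- Maker has a strategy `σ` (a function of the list of Breaker's earlier moves) such that for
every Breaker sequence `b`, with `m n` Maker's move number `n` (from `0`), played after
`b 0, …, b (n-1)`: every Maker move claims an unclaimed cell; as long as Breaker plays legally the
first 21 Maker moves lie in the square `[0,16]²`; and if Breaker's first 20 moves are legal then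
Maker's first 21 cells contain an allowed copy of Snaky. -/
theorem result :
    ∃ σ : List (ℤ × ℤ) → ℤ × ℤ, ∀ b m : ℕ → ℤ × ℤ,
      (∀ n, m n = σ ((List.range n).map b)) →
      (∀ n, ∀ k < n, m n ≠ m k ∧ m n ≠ b k) ∧
      (∀ n < 21, (∀ j < n, (∀ k ≤ j, b j ≠ m k) ∧ (∀ k < j, b j ≠ b k)) →
        0 ≤ (m n).1 ∧ (m n).1 ≤ 16 ∧ 0 ≤ (m n).2 ∧ (m n).2 ≤ 16) ∧
      ((∀ j < 20, (∀ k ≤ j, b j ≠ m k) ∧ (∀ k < j, b j ≠ b k)) →
        ∃ C : Set (ℤ × ℤ), IsAllowedCopy C ∧ ∀ c ∈ C, ∃ k < 21, m k = c) := by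
  obtain ⟨σ, hσ⟩ := strategy_of_WB board 20 winB
  refine ⟨σ, fun b m hm => ?_⟩
  obtain ⟨h1, h2, h3⟩ := hσ b m hm
  exact ⟨h1, fun n hn hb => mem_board.1 (h2 n hn hb), h3⟩

end Vale.Agent.Results.P062.Board17Moves21
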