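import Vale.Agent.P062.Defs
import Vale.Agent.P062.MainB

namespace Vale.Agent.Results.P062.MakerWins

open Vale.Agent.P062

/-- Maker has a strategy `σ` (a function of the list of Breaker's earlier moves) such that for
every Breaker sequence `b`, with `m n` Maker's move number `n` (from `0`), played after
`b 0, …, b (n-1)`: every Maker move is a legal claim of an unclaimed cell, and if Breaker's first
23 moves are legal then Maker's first 24 cells contain an allowed copy of Snaky. -/
theorem result :
    ∃ σ : List (ℤ × ℤ) → ℤ × ℤ, ∀ b m : ℕ → ℤ × ℤ,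
      (∀ n, m n = σ ((List.range n).map b)) →
      (∀ n, ∀ k < n, m n ≠ m k ∧ m n ≠ b k) ∧
      ((∀ j < 23, (∀ k ≤ j, b j ≠ m k) ∧ (∀ k < j, b j ≠ b k)) →
        ∃ C : Set (ℤ × ℤ), IsAllowedCopy C ∧ ∀ c ∈ C, ∃ k < 24, m k = c) :=
  strategy_of_W 23 win24

end Vale.Agent.Results.P062.MakerWins
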